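import Vale.Agent.H40.Res.Final
import Vale.Agent.H40.SKWhp

/-!
P150 (Glauber dynamics for the Sherrington-Kirkpatrick model): the two strongest statements of
the folder in one theorem.

Part 1 (every fixed `β > 1`, the whole low temperature phase): for every sequence `K n → ∞`,
with probability tending to one over the Gaussian disorder, continuous-time heat-bath Glauber
dynamics for the zero-field SK Gibbs measure on `{-1,1}^n` has spectral gap at most `K n / n`,
and for every time `t < log 2 · n / K n` some starting configuration is at total variation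
distance more than `1/4` from equilibrium (`t_mix ≥ log 2 · n / K n`); and there are constants
`C`, `θ > 0` such that for every fixed `K > 0`, `e > 0`, for all large `n`, the same two bounds
with `K n = K` hold with probability at least `1 - C K^(-θ) - e`.

Part 2 (every `β > 2 √(log 2)`, with `c = 1 - 2 √(log 2) / β`): for every `n ≥ 1` and every
`K > 0` the two bounds hold with probability at least `1 - (10 / c²) K^(-c/16)`.
-/

namespace Vale.Agent.Results.P150.A000_LowTempAndExplicit

open MeasureTheory ProbabilityTheory Vale.Agent.H40.SK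

theorem result :
    (∀ β : ℝ, 1 < β →
      (∀ K : ℕ → ℝ, Filter.Tendsto K Filter.atTop Filter.atTop →
        Filter.Tendsto (fun n : ℕ => (Measure.pi (fun _ : Fin n × Fin n => gaussianReal 0 1))
            {g | spectralGap (gibbs n β g) ≤ K n / n ∧
              ∀ t : ℝ, 0 ≤ t → t < Real.log 2 * (n / K n) →
                ∃ x, 1 / 4 < tvDist (gibbs n β g) t x})
          Filter.atTop (nhds 1)) ∧
      (∃ C θ : ℝ, 0 < C ∧ 0 < θ ∧ ∀ K : ℝ, 0 < K → ∀ e : ℝ, 0 < e →
        ∀ᶠ n : ℕ in Filter.atTop,
          ENNReal.ofReal (1 - C * K ^ (-θ) - e) ≤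
            (Measure.pi (fun _ : Fin n × Fin n => gaussianReal 0 1))
              {g | spectralGap (gibbs n β g) ≤ K / n ∧
                ∀ t : ℝ, 0 ≤ t → t < Real.log 2 * (n / K) →
                  ∃ x, 1 / 4 < tvDist (gibbs n β g) t x})) ∧
    (∀ β : ℝ, 2 * √(Real.log 2) < β → ∀ n : ℕ, 1 ≤ n → ∀ K : ℝ, 0 < K →
      ENNReal.ofReal (1 - 10 / (1 - 2 * √(Real.log 2) / β) ^ 2 *
          K ^ (-((1 - 2 * √(Real.log 2) / β) / 16))) ≤
        (Measure.pi (fun _ : Fin n × Fin n => gaussianReal 0 1))
          {g | spectralGap (gibbs n β g) ≤ K / n ∧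
            ∀ t : ℝ, 0 ≤ t → t < Real.log 2 * (n / K) →
              ∃ x, 1 / 4 < tvDist (gibbs n β g) t x}) :=
  ⟨fun β hβ => ⟨fun K hK => slow_mixing_tendsto_lowtemp β hβ K hK,
      slow_mixing_fixedK_lowtemp β hβ⟩,
    fun β hβ _ hn K hK => slow_mixing_whp hn β hβ K hK⟩

end Vale.Agent.Results.P150.A000_LowTempAndExplicit
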