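import Vale.Agent.H40.Res.Final

/-!
P150 (Glauber dynamics for the Sherrington-Kirkpatrick model).

For EVERY fixed `β > 1` (the whole low temperature phase):

* for every sequence `K n → ∞`, with probability tending to one over the Gaussian disorder,
  continuous-time heat-bath Glauber dynamics for the zero-field SK Gibbs measure on `{-1,1}^n`
  has spectral gap at most `K n / n`, and for every time `t < log 2 · n / K n` some starting
  configuration is at total variation distance more than `1/4` from equilibrium, that is
  `t_mix ≥ log 2 · n / K n`;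
* there are constants `C` and `θ > 0` (depending on `β`) such that for every fixed `K > 0` and
  `e > 0`, for all large `n`, the same two bounds with `K n = K` hold with probability at least
  `1 - C K^(-θ) - e`.
-/

namespace Vale.Agent.Results.P150.A00_LowTempSlowMixing

open MeasureTheory ProbabilityTheory Vale.Agent.H40.SK

theorem result (β : ℝ) (hβ : 1 < β) :
    (∀ K : ℕ → ℝ, Filter.Tendsto K Filter.atTop Filter.atTop →
      Filter.Tendsto (fun n : ℕ => (Measure.pi (fun _ : Fin n × Fin n => gaussianReal 0 1))
          {g | spectralGap (gibbs n β g) ≤ K n / n ∧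
            ∀ t : ℝ, 0 ≤ t → t < Real.log 2 * (n / K n) →
              ∃ x, 1 / 4 < tvDist (gibbs n β g) t x})
        Filter.atTop (nhds 1)) ∧
    (∃ C θ : ℝ, 0 < C ∧ 0 < θ ∧ ∀ K : ℝ, 0 < K → ∀ e : ℝ, 0 < e →
      ∀ᶠ n : ℕ in Filter.atTop,
        ENNReal.ofReal (1 - C * K ^ (-θ) - e) ≤
          (Measure.pi (fun _ : Fin n × Fin n => gaussianReal 0 1))
            {g | spectralGap (gibbs n β g) ≤ K / n ∧
              ∀ t : ℝ, 0 ≤ t → t < Real.log 2 * (n / K) →
                ∃ x, 1 / 4 < tvDist (gibbs n β g) t x}) :=
  ⟨fun K hK => slow_mixing_tendsto_lowtemp β hβ K hK, slow_mixing_fixedK_lowtemp β hβ⟩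

end Vale.Agent.Results.P150.A00_LowTempSlowMixing
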