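import Vale.Agent.H40.SKWhp

/-!
P150 (Glauber dynamics for the Sherrington-Kirkpatrick model).

Fix `β > 2 √(log 2)` and put `c = 1 - 2 √(log 2) / β`.

* For every `n ≥ 1` and every `K > 0`, with probability at least `1 - (10 / c²) K^(-c/16)` over
  the Gaussian disorder, continuous-time heat-bath Glauber dynamics has spectral gap at most
  `K / n`, and for every time `t < log 2 · n / K` some starting configuration is at total
  variation distance more than `1/4` from equilibrium, that is `t_mix ≥ log 2 · n / K`.
* Hence for every sequence `K n → ∞` these two bounds (with `K = K n`) hold with probability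
  tending to one as `n → ∞`.
-/

namespace Vale.Agent.Results.P150.A0_SlowMixingWhp

open MeasureTheory ProbabilityTheory Vale.Agent.H40.SK

theorem result (β : ℝ) (hβ : 2 * √(Real.log 2) < β) :
    (∀ n : ℕ, 1 ≤ n → ∀ K : ℝ, 0 < K →
      ENNReal.ofReal (1 - 10 / (1 - 2 * √(Real.log 2) / β) ^ 2 *
          K ^ (-((1 - 2 * √(Real.log 2) / β) / 16))) ≤
        (Measure.pi (fun _ : Fin n × Fin n => gaussianReal 0 1))
          {g | spectralGap (gibbs n β g) ≤ K / n ∧
            ∀ t : ℝ, 0 ≤ t → t < Real.log 2 * (n / K) →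
              ∃ x, 1 / 4 < tvDist (gibbs n β g) t x}) ∧
    (∀ K : ℕ → ℝ, Filter.Tendsto K Filter.atTop Filter.atTop →
      Filter.Tendsto (fun n : ℕ => (Measure.pi (fun _ : Fin n × Fin n => gaussianReal 0 1))
          {g | spectralGap (gibbs n β g) ≤ K n / n ∧
            ∀ t : ℝ, 0 ≤ t → t < Real.log 2 * (n / K n) →
              ∃ x, 1 / 4 < tvDist (gibbs n β g) t x})
        Filter.atTop (nhds 1)) :=
  ⟨fun _ hn K hK => slow_mixing_whp hn β hβ K hK, fun K hK => slow_mixing_tendsto β hβ K hK⟩

end Vale.Agent.Results.P150.A0_SlowMixingWhp
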