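import Vale.Agent.H40.SKMix

/-!
P150 (Glauber dynamics for the Sherrington-Kirkpatrick model).

For every `n ≥ 1` and every inverse temperature `β > 2 √(log 2)`, with `c = 1 - 2 √(log 2) / β`,
with probability at least `c / 2` over the Gaussian disorder, continuous-time heat-bath Glauber
dynamics has spectral gap at most `2 / (c n)`, and for every time `t < log 2 · c n / 2` some
starting configuration is at total variation distance more than `1/4` from equilibrium, that is
`t_mix ≥ log 2 · c n / 2`.
-/

namespace Vale.Agent.Results.P150.A_SlowMixing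

open MeasureTheory ProbabilityTheory Vale.Agent.H40.SK

theorem result (n : ℕ) (hn : 1 ≤ n) (β : ℝ) (hβ : 2 * √(Real.log 2) < β) :
    ENNReal.ofReal ((1 - 2 * √(Real.log 2) / β) / 2) ≤
      (Measure.pi (fun _ : Fin n × Fin n => gaussianReal 0 1))
        {g | spectralGap (gibbs n β g) ≤ 2 / ((1 - 2 * √(Real.log 2) / β) * n) ∧
          ∀ t : ℝ, 0 ≤ t → t < Real.log 2 * ((1 - 2 * √(Real.log 2) / β) * n / 2) →
            ∃ x, 1 / 4 < tvDist (gibbs n β g) t x} :=
  slow_mixing hn β hβ

end Vale.Agent.Results.P150.A_SlowMixing
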